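import Vale.Agent.P161.C.Final
import Vale.Agent.P161.C.Uniq

open MeasureTheory Vale.Agent.P161 Vale.Agent.P161.C

theorem Vale.Agent.Results.P161.Critical.result (d : ℕ) (hd : 3 ≤ d) (V : Type)
    (T : SimpleGraph V) (hT : T.IsTree) (hreg : ∀ v, (T.neighborSet v).encard = d)
    (β : ℝ) (hβ : 0 ≤ β) (hθ : Real.tanh β ≤ 1 / √(d - 1)) :
    (∃ μ : Measure (V → Bool), IsFreeIsing T (Real.tanh β) μ) ∧
      ∀ μ : Measure (V → Bool), IsFreeIsing T (Real.tanh β) μ → IsFactorOfIID T μ := by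
  have hd' : (3 : ℝ) ≤ d := by exact_mod_cast hd
  have h0 : 0 ≤ Real.tanh β := by
    rw [Real.tanh_eq_sinh_div_cosh]
    exact div_nonneg (Real.sinh_nonneg_iff.2 hβ) (Real.cosh_pos β).le
  have h1 : Real.tanh β ^ 2 * (d - 1) ≤ 1 := by
    rw [le_div_iff₀ (Real.sqrt_pos.2 (by linarith))] at hθ
    rw [← Real.sq_sqrt (show (0 : ℝ) ≤ d - 1 by linarith), ← mul_pow]
    exact pow_le_one₀ (by positivity) hθ
  obtain ⟨ν, h2, h3⟩ := fiid_of_le hT hreg hd h0 h1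
  exact ⟨⟨ν, h2⟩, fun μ hμ => uniq hT hreg h2 hμ ▸ h3⟩
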