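import Vale.Agent.P161.Main

open MeasureTheory Vale.Agent.P161

theorem Vale.Agent.Results.P161.Subcritical.result (d : ℕ) (hd : 3 ≤ d) (V : Type)
    (T : SimpleGraph V) (hT : T.IsTree) (hreg : ∀ v, (T.neighborSet v).encard = d)
    (β : ℝ) (hβ : 0 ≤ β) (hθ : Real.tanh β < 1 / √(d - 1)) :
    ∃ μ : Measure (V → Bool), IsFreeIsing T (Real.tanh β) μ ∧ IsFactorOfIID T μ := by
  have hd' : (3 : ℝ) ≤ d := by exact_mod_cast hd
  have h0 : 0 ≤ Real.tanh β := by
    rw [Real.tanh_eq_sinh_div_cosh]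
    exact div_nonneg (Real.sinh_nonneg_iff.2 hβ) (Real.cosh_pos β).le
  have h1 : Real.tanh β ^ 2 * (d - 1) < 1 := by
    rw [lt_div_iff₀ (Real.sqrt_pos.2 (by linarith))] at hθ
    rw [← Real.sq_sqrt (show (0 : ℝ) ≤ d - 1 by linarith), ← mul_pow]
    exact pow_lt_one₀ (by positivity) hθ two_ne_zero
  obtain ⟨ε, l, P⟩ := exists_par hT hreg hd h0 h1
  have := countable_tree hT hreg
  exact ⟨_, isFreeIsing P, Phi T _ ε, measurable_Phi, rfl,
    fun g => ae_of_all _ fun U => funext (Phi_map P g U)⟩
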